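import Vale.Agent.P162.Top.Defs
import Vale.Agent.P162.Thorp
import Vale.Agent.P162.Group

namespace Vale.Agent.P162.Top

open Finset Real Vale.Agent.P162 Vale.Agent.P162.KL

theorem conv_assoc' {Γ : Type*} [Group Γ] [Fintype Γ] (a b c : Γ → ℝ) :
    conv (conv a b) c = conv a (conv b c) := by
  funext g
  unfold conv
  simp only [Finset.sum_mul, Finset.mul_sum]
  rw [Finset.sum_comm]
  apply Finset.sum_congr rfl
  intro u _
  rw [← Equiv.sum_comp (Equiv.mulLeft u)]
  apply Finset.sum_congr rfl
  intro v _
  simp [mul_assoc]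

theorem conv_delta_left {Γ : Type*} [Group Γ] [Fintype Γ] [DecidableEq Γ] (q : Γ → ℝ) :
    conv (fun g : Γ => if g = 1 then (1 : ℝ) else 0) q = q := by
  funext g
  unfold conv
  rw [Finset.sum_eq_single (1 : Γ)]
  · simp
  · intro h _ hne
    simp [hne]
  · intro h; exact absurd (Finset.mem_univ _) h

theorem conv_delta_right {Γ : Type*} [Group Γ] [Fintype Γ] [DecidableEq Γ] (q : Γ → ℝ) :
    conv q (fun g : Γ => if g = 1 then (1 : ℝ) else 0) = q := by
  funext g
  unfold conv
  rw [Finset.sum_eq_single g]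
  · simp
  · intro h _ hne
    have : ¬ (h⁻¹ * g = 1) := by
      intro he
      apply hne
      have := inv_mul_eq_one.1 he
      exact this
    simp [this]
  · intro h; exact absurd (Finset.mem_univ _) h

/-- the newest shuffle can be put on the left (associativity of `conv` + induction) -/
theorem thorpPow_succ' (m t : ℕ) :
    thorpPow m (t + 1) = conv (thorpLaw m) (thorpPow m t) := by
  induction t with
  | zero =>
    show conv (thorpPow m 0) (thorpLaw m) = conv (thorpLaw m) (thorpPow m 0)
    have h0 : thorpPow m 0 = fun g => if g = 1 then (1 : ℝ) else 0 := rfl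
    rw [h0, conv_delta_left, conv_delta_right]
  | succ t ih =>
    show conv (thorpPow m (t + 1)) (thorpLaw m) = conv (thorpLaw m) (thorpPow m (t + 1))
    conv_lhs => rw [ih]
    rw [conv_assoc']
    rfl

theorem isLaw_thorpPow (m t : ℕ) : IsLaw (thorpPow m t) :=
  ⟨thorpPow_nonneg m t, sum_thorpPow m t⟩

theorem conv_thorpLaw_unif (m : ℕ) :
    conv (thorpLaw m) (unif (Equiv.Perm (Fin (2 * m)))) = unif (Equiv.Perm (Fin (2 * m))) := by
  funext g
  unfold conv unif
  rw [← Finset.sum_mul, sum_thorpLaw, one_mul]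

end Vale.Agent.P162.Top
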