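import Mathlib

namespace Vale.Agent.P162.Top

open Finset Real

/-- geometric decay beats a constant -/
theorem decay_le (δ B : ℝ) (t : ℕ) (hδ0 : 0 < δ) (hδ1 : δ ≤ 1) (hB : 0 < B)
    (h : Real.log (8 * B) ≤ δ * t) : (1 - δ) ^ t * B ≤ 1 / 8 := by
  have h1 : (1 - δ) ^ t ≤ Real.exp (-(δ * t)) := by
    have h2 : 1 - δ ≤ Real.exp (-δ) := by
      have := Real.add_one_le_exp (-δ)
      linarith
    calc (1 - δ) ^ t ≤ (Real.exp (-δ)) ^ t := pow_le_pow_left₀ (by linarith) h2 t
      _ = Real.exp (-(δ * t)) := by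
        rw [← Real.exp_nat_mul]
        congr 1
        ring
  have h3 : Real.exp (-(δ * t)) ≤ Real.exp (-Real.log (8 * B)) :=
    Real.exp_le_exp.2 (by linarith)
  have h4 : Real.exp (-Real.log (8 * B)) = 1 / (8 * B) := by
    rw [Real.exp_neg, Real.exp_log (by positivity)]
    simp
  calc (1 - δ) ^ t * B ≤ 1 / (8 * B) * B :=
        mul_le_mul_of_nonneg_right (h1.trans (h3.trans h4.le)) hB.le
    _ = 1 / 8 := by
        field_simp

/-- crude bound for the initial entropy -/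
theorem log_factorial_le (k : ℕ) : Real.log ((2 * 2 ^ k).factorial : ℝ) ≤ 4 ^ (k + 1) := by
  set n : ℕ := 2 * 2 ^ k with hn
  have hn1 : 1 ≤ n := by
    have : 0 < 2 ^ k := by positivity
    omega
  have h1 : ((n.factorial : ℕ) : ℝ) ≤ (n : ℝ) ^ n := by
    exact_mod_cast Nat.factorial_le_pow n
  have h2 : Real.log (n.factorial : ℝ) ≤ Real.log ((n : ℝ) ^ n) :=
    Real.log_le_log (by exact_mod_cast Nat.factorial_pos n) h1
  have h3 : Real.log ((n : ℝ) ^ n) = n * Real.log n := by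
    rw [Real.log_pow]
  have h4 : Real.log (n : ℝ) ≤ n := by
    have hpos : (0 : ℝ) < n := by exact_mod_cast hn1
    have := Real.log_le_sub_one_of_pos hpos
    linarith
  have h5 : (n : ℝ) * n = 4 ^ (k + 1) := by
    rw [hn]
    push_cast
    rw [pow_succ]
    have : (4 : ℝ) ^ k = 2 ^ k * 2 ^ k := by
      rw [← mul_pow]; norm_num
    rw [this]
    ring
  have hn0 : (0 : ℝ) ≤ n := by positivity
  calc Real.log (n.factorial : ℝ) ≤ n * Real.log n := by rw [← h3]; exact h2
    _ ≤ n * n := mul_le_mul_of_nonneg_left h4 hn0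
    _ = 4 ^ (k + 1) := h5

theorem log_factorial_pos (k : ℕ) : 0 < Real.log ((2 * 2 ^ k).factorial : ℝ) := by
  apply Real.log_pos
  have h2 : 2 ≤ 2 * 2 ^ k := by
    have : 0 < 2 ^ k := by positivity
    omega
  have h3 : 2 ≤ (2 * 2 ^ k).factorial := h2.trans (Nat.self_le_factorial _)
  have : (2 : ℝ) ≤ ((2 * 2 ^ k).factorial : ℝ) := by exact_mod_cast h3
  linarith

end Vale.Agent.P162.Top
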