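import Vale.Agent.P162.Top.Defs
import Vale.Agent.P162.KL.Mono
import Vale.Agent.P162.KL.DvKl

namespace Vale.Agent.P162.Top

open Finset Real Vale.Agent.P162 Vale.Agent.P162.KL

theorem Sr_nonneg (k r : ℕ) (μ : G k → ℝ) (hμ : IsLaw μ) : 0 ≤ Sr k r μ :=
  Dv_nonneg (pair_unif μ hμ) _

/-- no bit observed -/
theorem Sr_zero (k : ℕ) (μ : G k → ℝ) (hμ : IsLaw μ) : Sr k 0 μ = 0 := by
  unfold Sr
  apply Dv_const (pair_unif μ hμ) (lowBits k 0) (fun _ => ⟨0, by positivity⟩)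
  intro g
  funext x
  apply Fin.ext
  simp [lowBits, Nat.mod_one]

/-- more bits, more divergence (use `Dv_comp_le` with reduction modulo `2 ^ r`) -/
theorem Sr_mono (k : ℕ) {r r' : ℕ} (hrr : r ≤ r') (μ : G k → ℝ) (hμ : IsLaw μ) :
    Sr k r μ ≤ Sr k r' μ := by
  unfold Sr
  have hcomp : lowBits k r =
      (fun (c : Fin (2 * 2 ^ k) → Fin (2 * 2 ^ k)) (x : Fin (2 * 2 ^ k)) =>
        (⟨(c x).val % 2 ^ r, lt_of_le_of_lt (Nat.mod_le _ _) (c x).isLt⟩ : Fin (2 * 2 ^ k)))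
        ∘ lowBits k r' := by
    funext g x
    apply Fin.ext
    simp only [lowBits, Function.comp]
    exact (Nat.mod_mod_of_dvd _ (pow_dvd_pow 2 hrr)).symm
  rw [hcomp]
  exact Dv_comp_le (pair_unif μ hμ) (lowBits k r') _

/-- all bits observed (use `Dv_inj`) -/
theorem Sr_top (k : ℕ) (μ : G k → ℝ) : Sr k (k + 1) μ = kl μ (unif (G k)) := by
  unfold Sr
  apply Dv_inj
  intro g g' h
  apply Equiv.ext
  intro x
  have hx := congrFun h x
  have hv := congrArg Fin.val hx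
  simp only [lowBits] at hv
  have e : 2 ^ (k + 1) = 2 * 2 ^ k := by rw [pow_succ]; ring
  rw [e, Nat.mod_eq_of_lt (g x).isLt, Nat.mod_eq_of_lt (g' x).isLt] at hv
  exact Fin.ext hv

end Vale.Agent.P162.Top
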