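import Vale.Agent.P162.Top.SrBasic
import Vale.Agent.P162.Top.ConvComm

namespace Vale.Agent.P162.Top

open Finset Real Vale.Agent.P162 Vale.Agent.P162.KL

/-- divergence of the point mass at the identity -/
theorem kl_thorpPow_zero (k : ℕ) :
    kl (thorpPow (2 ^ k) 0) (unif (G k)) = Real.log ((2 * 2 ^ k).factorial : ℝ) := by
  have h0 : thorpPow (2 ^ k) 0 = fun g => if g = 1 then (1 : ℝ) else 0 := rfl
  unfold kl
  rw [h0, Finset.sum_eq_single (1 : G k)]
  · have hc : (Fintype.card (G k) : ℝ) = ((2 * 2 ^ k).factorial : ℝ) := by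
      rw [Fintype.card_perm, Fintype.card_fin]
    simp only [if_true, one_mul, unif, hc]
    rw [one_div_one_div]
  · intro g _ hne
    simp [hne]
  · intro h; exact absurd (Finset.mem_univ _) h

/-- the potential at time zero -/
theorem Psi_zero_le (k : ℕ) (w : ℕ → ℝ) (hw : ∀ i, 0 < w i) :
    Psi k w (thorpPow (2 ^ k) 0) ≤
      (∑ i ∈ Finset.range (k + 1), w i) * Real.log ((2 * 2 ^ k).factorial : ℝ) := by
  unfold Psi
  rw [Finset.sum_mul]
  apply Finset.sum_le_sum
  intro i _
  apply mul_le_mul_of_nonneg_left _ (hw i).le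
  rw [← kl_thorpPow_zero k, ← Sr_top]
  exact Sr_mono k (Nat.sub_le _ _) _ (isLaw_thorpPow _ _)

/-- the potential controls the full divergence -/
theorem kl_le_Psi (k : ℕ) (w : ℕ → ℝ) (hw : ∀ i, 0 < w i) (μ : G k → ℝ) (hμ : IsLaw μ) :
    w 0 * kl μ (unif (G k)) ≤ Psi k w μ := by
  unfold Psi
  rw [← Sr_top]
  have h := Finset.single_le_sum (f := fun i => w i * Sr k (k + 1 - i) μ)
    (s := Finset.range (k + 1)) (fun i _ => mul_nonneg (hw i).le (Sr_nonneg k _ μ hμ))
    (Finset.mem_range.2 (Nat.succ_pos k))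
  simpa using h

end Vale.Agent.P162.Top
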