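import Vale.Agent.P162.Top.Defs
import Vale.Agent.P162.KL.Pinsker

namespace Vale.Agent.P162.Top

open Finset Real Vale.Agent.P162 Vale.Agent.P162.KL

/-- small divergence gives total variation at most one quarter (from `tvUnif_le_quarter`) -/
theorem tv_le_of_kl {H : Type*} [Fintype H] [Nonempty H] (μ : H → ℝ) (hμ : IsLaw μ)
    (h : kl μ (unif H) ≤ 1 / 8) : tvUnif μ ≤ 1 / 4 :=
  tvUnif_le_quarter μ hμ h

end Vale.Agent.P162.Top
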