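import Vale.Agent.P162.Top.Wt

namespace Vale.Agent.P162.Top

open Finset Real

private theorem wtU_le_one (j0 : ℕ) (hj : 1 ≤ j0) (i : ℕ) : wt j0 i ≤ 1 := by
  induction i with
  | zero => simp [wt]
  | succ i ih => exact (wt_succ_le j0 hj i).trans ih

private theorem wtU_mul_le (j0 : ℕ) (hj : 1 ≤ j0) (i : ℕ) : (i : ℝ) * wt j0 i ≤ j0 := by
  induction i with
  | zero => simp
  | succ i ih =>
    have hp := wt_pos j0 hj i
    have h1 := wtU_le_one j0 hj (i + 1)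
    by_cases h : i < j0
    · have h2 : ((i + 1 : ℕ) : ℝ) ≤ j0 := by exact_mod_cast h
      have hp' := wt_pos j0 hj (i + 1)
      have h3 : (0 : ℝ) ≤ ((i + 1 : ℕ) : ℝ) := Nat.cast_nonneg _
      nlinarith
    · have hs : sg j0 i = (17 / 10) / ((i : ℝ) + 1) := by
        unfold sg
        rw [if_neg h]
      simp only [wt]
      rw [hs]
      push_cast
      have hi : (0 : ℝ) < (i : ℝ) + 1 := by positivity
      have e : ((i : ℝ) + 1) * ((1 - 17 / 10 / ((i : ℝ) + 1)) * wt j0 i)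
          = ((i : ℝ) - 7 / 10) * wt j0 i := by
        field_simp
        ring
      rw [e]
      nlinarith

private theorem wtU_rpow_diff (k : ℕ) :
    (1 / 10 : ℝ) / ((k : ℝ) + 2) ≤
      ((k : ℝ) + 2) ^ (1 / 10 : ℝ) - ((k : ℝ) + 1) ^ (1 / 10 : ℝ) := by
  have hk : (0 : ℝ) < (k : ℝ) + 2 := by positivity
  have hk0 : (0 : ℝ) ≤ (k : ℝ) := Nat.cast_nonneg k
  have hs : (-1 : ℝ) ≤ -1 / ((k : ℝ) + 2) := by
    rw [le_div_iff₀ hk]
    linarith
  have hb := _root_.rpow_one_add_le_one_add_mul_self hs (p := 1 / 10) (by norm_num) (by norm_num)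
  have e1 : (1 : ℝ) + -1 / ((k : ℝ) + 2) = ((k : ℝ) + 1) / ((k : ℝ) + 2) := by
    field_simp
    ring
  rw [e1, Real.div_rpow (by positivity) hk.le] at hb
  have hP : (1 : ℝ) ≤ ((k : ℝ) + 2) ^ (1 / 10 : ℝ) :=
    Real.one_le_rpow (by linarith) (by norm_num)
  have hP0 : (0 : ℝ) < ((k : ℝ) + 2) ^ (1 / 10 : ℝ) := by linarith
  rw [div_le_iff₀ hP0] at hb
  have e2 : (1 / 10 : ℝ) * (-1 / ((k : ℝ) + 2)) = -((1 / 10 : ℝ) / ((k : ℝ) + 2)) := by
    field_simp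
  rw [e2] at hb
  have hq : (0 : ℝ) ≤ (1 / 10 : ℝ) / ((k : ℝ) + 2) := by positivity
  nlinarith

/-- the weights decay at least like `1/i` (as `1 - (17/10)/(i+1) ≤ i/(i+1)`), so their sum grows
at most logarithmically -/
theorem wt_sum_upper (j0 : ℕ) (hj : 1 ≤ j0) :
    ∃ c2 : ℝ, 0 < c2 ∧ ∀ k : ℕ,
      ∑ i ∈ Finset.range (k + 1), wt j0 i ≤ c2 * ((k : ℝ) + 1) ^ (1 / 10 : ℝ) := by
  have hj0 : (1 : ℝ) ≤ (j0 : ℝ) := by exact_mod_cast hj
  refine ⟨20 * j0, by positivity, fun k => ?_⟩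
  induction k with
  | zero =>
    simp [wt]
    linarith
  | succ k ih =>
    rw [Finset.sum_range_succ]
    have h1 := wtU_mul_le j0 hj (k + 1)
    have h2 := wtU_rpow_diff k
    push_cast at h1 ⊢
    have hk0 : (0 : ℝ) ≤ (k : ℝ) := Nat.cast_nonneg k
    have hk1 : (0 : ℝ) < (k : ℝ) + 1 := by positivity
    have hk2 : (0 : ℝ) < (k : ℝ) + 2 := by positivity
    have h3 : wt j0 (k + 1) ≤ (j0 : ℝ) / ((k : ℝ) + 1) := by
      rw [le_div_iff₀ hk1]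
      linarith
    have h4 : (j0 : ℝ) / ((k : ℝ) + 1) ≤ 20 * j0 * ((1 / 10 : ℝ) / ((k : ℝ) + 2)) := by
      rw [div_le_iff₀ hk1]
      have e : 20 * (j0 : ℝ) * ((1 / 10 : ℝ) / ((k : ℝ) + 2)) * ((k : ℝ) + 1)
          = (j0 : ℝ) * (2 * ((k : ℝ) + 1) / ((k : ℝ) + 2)) := by
        field_simp
        ring
      rw [e]
      have : (1 : ℝ) ≤ 2 * ((k : ℝ) + 1) / ((k : ℝ) + 2) := by
        rw [le_div_iff₀ hk2]
        linarith
      nlinarith
    have h5 : 20 * (j0 : ℝ) * ((1 / 10 : ℝ) / ((k : ℝ) + 2)) ≤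
        20 * (j0 : ℝ) * (((k : ℝ) + 2) ^ (1 / 10 : ℝ) - ((k : ℝ) + 1) ^ (1 / 10 : ℝ)) :=
      mul_le_mul_of_nonneg_left h2 (by positivity)
    have e3 : (k : ℝ) + 1 + 1 = (k : ℝ) + 2 := by ring
    rw [e3]
    linarith

end Vale.Agent.P162.Top
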