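import Vale.Agent.P162.Top.WtLower
import Vale.Agent.P162.Top.WtUpper
import Vale.Agent.P162.Top.ExpDecay

namespace Vale.Agent.P162.Top

open Finset Real

/-- scalar endgame (from `wt_lower`, `wt_sum_upper`, `decay_le`, `log_factorial_le`) -/
theorem scalar_end (j0 : ℕ) (hj : 1 ≤ j0) :
    ∃ C : ℝ, ∀ k t : ℕ, C * ((k : ℝ) + 1) ^ (29 / 10 : ℝ) ≤ t →
      (1 - wt j0 (k + 1) / ∑ i ∈ Finset.range (k + 1), wt j0 i) ^ t *
        ((∑ i ∈ Finset.range (k + 1), wt j0 i) * Real.log ((2 * 2 ^ k).factorial : ℝ)) ≤ 1 / 8 := by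
  obtain ⟨c1, hc1, hlow⟩ := wt_lower j0 hj
  obtain ⟨c2, hc2, hup⟩ := wt_sum_upper j0 hj
  set z : ℝ := -(9 / 5) with hz
  set a : ℝ := (2 : ℝ) ^ z with ha
  have ha0 : 0 < a := Real.rpow_pos_of_pos (by norm_num) _
  set c3 : ℝ := |Real.log (8 * c2)| + 1 / 10 + Real.log 4 with hc3
  have hlog4 : 0 < Real.log 4 := Real.log_pos (by norm_num)
  have hc30 : 0 < c3 := by positivity
  refine ⟨c3 * c2 / (c1 * a), ?_⟩
  intro k t ht
  set x : ℝ := (k : ℝ) + 1 with hx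
  have hx1 : 1 ≤ x := by
    have : (0 : ℝ) ≤ k := Nat.cast_nonneg k
    linarith
  have hx0 : 0 < x := by linarith
  set W := ∑ i ∈ Finset.range (k + 1), wt j0 i with hW
  set w := wt j0 (k + 1) with hw
  set Lf := Real.log ((2 * 2 ^ k).factorial : ℝ) with hLf
  have hw0 : 0 < w := wt_pos j0 hj _
  have hwW : w ≤ W := wt_le_sum j0 hj k
  have hW0 : 0 < W := lt_of_lt_of_le hw0 hwW
  have hLf0 : 0 < Lf := log_factorial_pos k
  have hLf1 : Lf ≤ 4 ^ (k + 1) := log_factorial_le k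
  have hWup : W ≤ c2 * x ^ (1 / 10 : ℝ) := hup k
  have hwlow : c1 * (a * x ^ z) ≤ w := by
    have h1 := hlow (k + 1)
    have h2 : (((k + 1 : ℕ) : ℝ) + 1) ≤ 2 * x := by
      push_cast
      linarith
    have h3 : (2 * x) ^ z ≤ (((k + 1 : ℕ) : ℝ) + 1) ^ z :=
      Real.rpow_le_rpow_of_nonpos (by positivity) h2 (by rw [hz]; norm_num)
    rw [Real.mul_rpow (by norm_num) hx0.le] at h3
    calc c1 * (a * x ^ z) ≤ c1 * (((k + 1 : ℕ) : ℝ) + 1) ^ z :=
          mul_le_mul_of_nonneg_left h3 hc1.le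
      _ ≤ w := h1
  apply decay_le (w / W) (W * Lf) t (by positivity) ((div_le_one hW0).2 hwW) (by positivity)
  have hlog : Real.log (8 * (W * Lf)) ≤ c3 * x := by
    have h1 : 8 * (W * Lf) ≤ 8 * c2 * x ^ (1 / 10 : ℝ) * 4 ^ (k + 1) := by
      have : W * Lf ≤ (c2 * x ^ (1 / 10 : ℝ)) * 4 ^ (k + 1) :=
        mul_le_mul hWup hLf1 hLf0.le (by positivity)
      linarith
    have h2 : Real.log (8 * (W * Lf)) ≤ Real.log (8 * c2 * x ^ (1 / 10 : ℝ) * 4 ^ (k + 1)) :=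
      Real.log_le_log (by positivity) h1
    have h3 : Real.log (8 * c2 * x ^ (1 / 10 : ℝ) * 4 ^ (k + 1))
        = Real.log (8 * c2) + (1 / 10) * Real.log x + ((k + 1 : ℕ) : ℝ) * Real.log 4 := by
      rw [Real.log_mul (by positivity) (by positivity), Real.log_mul (by positivity) (by positivity),
        Real.log_rpow hx0, Real.log_pow]
    have h4 : Real.log x ≤ x := (Real.log_le_sub_one_of_pos hx0).trans (by linarith)
    have h5 : Real.log (8 * c2) ≤ |Real.log (8 * c2)| * x :=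
      (le_abs_self _).trans (le_mul_of_one_le_right (abs_nonneg _) hx1)
    rw [h3] at h2
    have h6 : ((k + 1 : ℕ) : ℝ) = x := by
      push_cast
      rfl
    rw [h6] at h2
    rw [hc3]
    nlinarith
  have e1 : w / W * t = (w * t) / W := by ring
  rw [e1, le_div_iff₀ hW0]
  have hxp : x * x ^ (1 / 10 : ℝ) = x ^ (11 / 10 : ℝ) := by
    rw [show (11 / 10 : ℝ) = 1 + 1 / 10 by norm_num, Real.rpow_add hx0, Real.rpow_one]
  have hxq : x ^ z * x ^ (29 / 10 : ℝ) = x ^ (11 / 10 : ℝ) := by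
    rw [← Real.rpow_add hx0]
    congr 1
    rw [hz]
    norm_num
  calc Real.log (8 * (W * Lf)) * W ≤ c3 * x * W := mul_le_mul_of_nonneg_right hlog hW0.le
    _ ≤ c3 * x * (c2 * x ^ (1 / 10 : ℝ)) := mul_le_mul_of_nonneg_left hWup (by positivity)
    _ = c3 * c2 * x ^ (11 / 10 : ℝ) := by
        rw [← hxp]
        ring
    _ = c1 * (a * x ^ z) * (c3 * c2 / (c1 * a) * x ^ (29 / 10 : ℝ)) := by
        rw [← hxq]
        field_simp
    _ ≤ w * t := mul_le_mul hwlow ht (by positivity) hw0.le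

end Vale.Agent.P162.Top
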