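import Vale.Agent.P162.Top.Iterate
import Vale.Agent.P162.Top.ScalarEnd
import Vale.Agent.P162.Top.Tv

namespace Vale.Agent.P162.Top

open Finset Real Vale.Agent.P162 Vale.Agent.P162.KL

/-- TOP half: the two SDPI statements (A), (B) imply the mixing time bound -/
theorem top_final (hA : ∀ M : ℕ, 1 ≤ M → SDPI (bitChan M) (1 / 2))
    (hB : ∃ j0 : ℕ, ∀ j : ℕ, j0 ≤ j → SDPI (bitChan (2 ^ j)) ((17 / 10) / ((j : ℝ) + 1))) :
    ∃ C : ℝ, ∀ k t : ℕ, C * ((k : ℝ) + 1) ^ (29 / 10 : ℝ) ≤ t →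
      tvUnif (thorpPow (2 ^ k) t) ≤ 1 / 4 := by
  obtain ⟨j0, hj0⟩ := hB
  have hj : 1 ≤ max j0 1 := le_max_right _ _
  obtain ⟨C, hC⟩ := scalar_end (max j0 1) hj
  refine ⟨C, fun k t ht => ?_⟩
  have hw := wt_pos (max j0 1) hj
  have hσ : ∀ i ≤ k, SDPI (bitChan (2 ^ i)) (sg (max j0 1) i) := by
    intro i _
    unfold sg
    split_ifs with h
    · exact hA _ Nat.one_le_two_pow
    · exact hj0 i (le_trans (le_max_left _ _) (not_lt.mp h))
  have h1 := Psi_iter k (wt (max j0 1)) (sg (max j0 1)) hw (fun i _ => le_of_eq rfl) hσ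
    (wt_le_sum _ hj k) t
  have h2 := Psi_zero_le k (wt (max j0 1)) hw
  have h3 := kl_le_Psi k (wt (max j0 1)) hw _ (isLaw_thorpPow (2 ^ k) t)
  have h4 := hC k t ht
  have hW : 0 < ∑ i ∈ Finset.range (k + 1), wt (max j0 1) i :=
    Finset.sum_pos (fun i _ => hw i) ⟨0, by simp⟩
  have h0 : 0 ≤ 1 - wt (max j0 1) (k + 1) / ∑ i ∈ Finset.range (k + 1), wt (max j0 1) i := by
    rw [sub_nonneg, div_le_one hW]
    exact wt_le_sum _ hj k
  have h5 : wt (max j0 1) 0 = 1 := rfl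
  rw [h5, one_mul] at h3
  apply tv_le_of_kl _ (isLaw_thorpPow (2 ^ k) t)
  calc kl (thorpPow (2 ^ k) t) (unif (G k)) ≤ Psi k (wt (max j0 1)) (thorpPow (2 ^ k) t) := h3
    _ ≤ _ := h1
    _ ≤ _ := mul_le_mul_of_nonneg_left h2 (pow_nonneg h0 t)
    _ ≤ 1 / 8 := h4

end Vale.Agent.P162.Top
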