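import Vale.Agent.P162.Top.Final

namespace Vale.Agent.P162.Top

open Finset Real Vale.Agent.P162 Vale.Agent.P162.KL

/-- `top_final` with a positive constant -/
theorem top_final_pos (hA : ∀ M : ℕ, 1 ≤ M → SDPI (bitChan M) (1 / 2))
    (hB : ∃ j0 : ℕ, ∀ j : ℕ, j0 ≤ j → SDPI (bitChan (2 ^ j)) ((17 / 10) / ((j : ℝ) + 1))) :
    ∃ C : ℝ, 0 < C ∧ ∀ k t : ℕ, C * ((k : ℝ) + 1) ^ (29 / 10 : ℝ) ≤ t →
      tvUnif (thorpPow (2 ^ k) t) ≤ 1 / 4 := by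
  obtain ⟨C, hC⟩ := top_final hA hB
  refine ⟨max C 1, lt_of_lt_of_le one_pos (le_max_right _ _), fun k t ht => hC k t ?_⟩
  have hx : (0 : ℝ) ≤ ((k : ℝ) + 1) ^ (29 / 10 : ℝ) := by positivity
  exact le_trans (mul_le_mul_of_nonneg_right (le_max_left _ _) hx) ht

end Vale.Agent.P162.Top
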