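import Vale.Agent.P162.Top.OneStep
import Vale.Agent.P162.Top.Start
import Vale.Agent.P162.Top.Tv
import Vale.Agent.P162.Pot

/-!
# P162, TOP half with a general constant
`s_j ≤ 1/2` and `s_j ≤ c / j` (large `j`) give `t_mix (2 ^ d) ≤ C d ^ (1 + gam)` for `c < gam ≤ 2`.
-/

namespace Vale.Agent.P162.Top

open Finset Real Vale.Agent.P162 Vale.Agent.P162.KL

theorem log_fact_le_four_pow (k : ℕ) :
    Real.log ((2 * 2 ^ k).factorial : ℝ) ≤ 4 ^ (k + 1) := by
  set n : ℕ := 2 * 2 ^ k with hn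
  have hn1 : 1 ≤ n := by
    have : 1 ≤ 2 ^ k := Nat.one_le_two_pow
    omega
  have h1 : (n.factorial : ℝ) ≤ (n : ℝ) ^ n := by exact_mod_cast Nat.factorial_le_pow n
  have hpos : (0 : ℝ) < (n.factorial : ℝ) := by positivity
  have hnR : (0 : ℝ) < n := by exact_mod_cast hn1
  have h2 : Real.log (n.factorial : ℝ) ≤ (n : ℝ) * Real.log n := by
    calc Real.log (n.factorial : ℝ) ≤ Real.log ((n : ℝ) ^ n) := Real.log_le_log hpos h1
      _ = (n : ℝ) * Real.log n := by rw [Real.log_pow]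
  have h3 : Real.log n ≤ n := le_trans (Real.log_le_sub_one_of_pos hnR) (by linarith)
  have h4 : (n : ℝ) * n = 4 ^ (k + 1) := by
    rw [hn]; push_cast
    rw [pow_succ, show (4 : ℝ) = 2 * 2 by norm_num, mul_pow]; ring
  calc Real.log (n.factorial : ℝ) ≤ (n : ℝ) * Real.log n := h2
    _ ≤ (n : ℝ) * n := mul_le_mul_of_nonneg_left h3 hnR.le
    _ = 4 ^ (k + 1) := h4

/-- TOP half, general constants. -/
theorem top_general (c gam : ℝ) (hc0 : 0 ≤ c) (hc : c < gam) (hg1 : 1 < gam) (hg2 : gam ≤ 2)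
    (hA : ∀ M : ℕ, 1 ≤ M → SDPI (bitChan M) (1 / 2))
    (hB : ∃ j0 : ℕ, ∀ j : ℕ, j0 ≤ j → SDPI (bitChan (2 ^ j)) (c / ((j : ℝ) + 1))) :
    ∃ C : ℝ, 0 < C ∧ ∀ k t : ℕ, C * ((k : ℝ) + 1) ^ (gam + 1) ≤ t →
      tvUnif (thorpPow (2 ^ k) t) ≤ 1 / 4 := by
  obtain ⟨j0, hj0⟩ := hB
  obtain ⟨C, hC, hpot⟩ := pot c gam hc0 hc hg1 hg2 (j0 + 1)
  refine ⟨C, hC, fun k t ht => ?_⟩
  obtain ⟨s, hsdef⟩ : ∃ s : ℕ → ℝ, s = fun j : ℕ =>
      if j0 + 1 ≤ j then min (1 / 2) (c / (j : ℝ)) else 1 / 2 := ⟨_, rfl⟩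
  obtain ⟨S, hSdef⟩ : ∃ S : ℕ → ℕ → ℝ, S = fun t j =>
      Sr k (k + 1 - j) (thorpPow (2 ^ k) t) := ⟨_, rfl⟩
  have hs : ∀ j, 0 ≤ s j ∧ s j ≤ 1 / 2 := by
    intro j
    rw [hsdef]
    simp only
    split_ifs
    · exact ⟨le_min (by norm_num) (by positivity), min_le_left _ _⟩
    · exact ⟨by norm_num, le_refl _⟩
  have hsc : ∀ j : ℕ, j0 + 1 ≤ j → s j ≤ c / (j : ℝ) := by
    intro j hj
    rw [hsdef]
    simp only
    rw [if_pos hj]
    exact min_le_right _ _
  have hσ : ∀ i : ℕ, SDPI (bitChan (2 ^ i)) (s (i + 1)) := by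
    intro i
    rw [hsdef]
    simp only
    split_ifs with h
    · rcases le_total (1 / 2 : ℝ) (c / ((i + 1 : ℕ) : ℝ)) with h1 | h1
      · rw [min_eq_left h1]
        exact hA _ Nat.one_le_two_pow
      · rw [min_eq_right h1]
        have := hj0 i (by omega)
        push_cast
        exact this
    · exact hA _ Nat.one_le_two_pow
  have hlaw : ∀ t, IsLaw (thorpPow (2 ^ k) t) := fun t => isLaw_thorpPow _ t
  have hS0 : ∀ t, S t 0 = kl (thorpPow (2 ^ k) t) (unif (G k)) := by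
    intro t
    rw [hSdef]
    simp only [Nat.sub_zero]
    exact Sr_top k _
  have hfin := hpot (k + 1) s S (by omega) hs hsc
    (fun t j => by rw [hSdef]; exact Sr_nonneg k _ _ (hlaw t))
    (fun t => by
      rw [hSdef]
      simp only [Nat.sub_self]
      exact Sr_zero k _ (hlaw t))
    (fun t j hj => by
      have hjk : j ≤ k := by omega
      have e1 : S (t + 1) j = Sr k ((k - j) + 1) (conv (thorpLaw (2 ^ k)) (thorpPow (2 ^ k) t)) := by
        rw [hSdef]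
        simp only
        rw [thorpPow_succ', show k + 1 - j = (k - j) + 1 by omega]
      have e2 : S t (j + 1) = Sr k (k - j) (thorpPow (2 ^ k) t) := by
        rw [hSdef]
        simp only
        rw [show k + 1 - (j + 1) = k - j by omega]
      rw [e1, e2, hS0]
      have hσ' : SDPI (bitChan (2 ^ (k - (k - j)))) (s (j + 1)) := by
        rw [show k - (k - j) = j by omega]
        exact hσ j
      exact one_step k (k - j) (Nat.sub_le _ _) (s (j + 1)) hσ' _ (hlaw t))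
    (fun j => by
      rw [hSdef]
      simp only
      calc Sr k (k + 1 - j) (thorpPow (2 ^ k) 0) ≤ Sr k (k + 1) (thorpPow (2 ^ k) 0) :=
            Sr_mono k (Nat.sub_le _ _) _ (hlaw 0)
        _ = Real.log ((2 * 2 ^ k).factorial : ℝ) := by rw [Sr_top, kl_thorpPow_zero]
        _ ≤ 4 ^ (k + 1) := log_fact_le_four_pow k)
    t (by push_cast; exact ht)
  rw [hS0] at hfin
  exact tv_le_of_kl _ (hlaw t) hfin

end Vale.Agent.P162.Top
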