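import Vale.Agent.P162.Top.Defs
import Vale.Agent.P162.KL.BitChan

namespace Vale.Agent.P162.Top

open Finset Real Vale.Agent.P162 Vale.Agent.P162.KL

theorem flipP_apply (M : ℕ) (y : Fin (2 * M)) : flipP M y = flipHalf M y := rfl

/-- closed form of the new-bit channel -/
theorem bitChan_eq (M : ℕ) (h : Equiv.Perm (Fin (2 * M))) (τ : Fin (2 * M) → Bool) :
    bitChan M h τ =
      if (∀ y, τ (h.symm (flipHalf M y)) = !τ (h.symm y)) then (1 / 2 : ℝ) ^ M else 0 := by
  rw [KL.bitChan_eq, one_div_pow]
  have e : (∀ x, τ (matchOf M h x) = !τ x) ↔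
      (∀ y, τ (h.symm (flipHalf M y)) = !τ (h.symm y)) := by
    constructor
    · intro H y
      have := H (h.symm y)
      rwa [matchOf_apply, Equiv.apply_symm_apply, flipP_apply] at this
    · intro H x
      have := H (h x)
      rwa [Equiv.symm_apply_apply, ← flipP_apply, ← matchOf_apply] at this
  simp only [e]

theorem isChan_bitChan (M : ℕ) : IsChan (bitChan M) := KL.isChan_bitChan M

end Vale.Agent.P162.Top
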