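import Vale.Agent.P162.Top.Block
import Vale.Agent.P162.Top.BitChan

namespace Vale.Agent.P162.Top

open Finset Real Vale.Agent.P162 Vale.Agent.P162.KL

/-- the regrouped column read at the card sitting at position `(κ, ρ)` after the block
permutation -/
theorem outEquiv_blockPerm_symm (k r : ℕ) (hr : r ≤ k)
    (h : Fin (2 ^ r) → Equiv.Perm (Fin (2 * 2 ^ (k - r)))) (g0 : G k)
    (β : Fin (2 ^ r) → Fin (2 * 2 ^ (k - r)) → Bool) (κ : Fin (2 * 2 ^ (k - r)))
    (ρ : Fin (2 ^ r)) :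
    outEquiv k r hr g0 β ((blockPerm k r hr h * g0).symm (posEquiv k r hr (κ, ρ))) =
      β ρ ((h ρ).symm κ) := by
  have h1 : (blockPerm k r hr h * g0).symm (posEquiv k r hr (κ, ρ)) =
      g0.symm (posEquiv k r hr ((h ρ).symm κ, ρ)) := by
    rw [← blockPerm_symm_apply]
    rfl
  rw [h1]
  simp [outEquiv]

/-- on a coset the new-bit channel is the product of the new-bit channels of the blocks -/
theorem bitChan_blockPerm (k r : ℕ) (hr : r ≤ k)
    (h : Fin (2 ^ r) → Equiv.Perm (Fin (2 * 2 ^ (k - r)))) (g0 : G k)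
    (β : Fin (2 ^ r) → Fin (2 * 2 ^ (k - r)) → Bool) :
    bitChan (2 ^ k) (blockPerm k r hr h * g0) (outEquiv k r hr g0 β) =
      ∏ ρ, bitChan (2 ^ (k - r)) (h ρ) (β ρ) := by
  have hcond : (∀ y, outEquiv k r hr g0 β ((blockPerm k r hr h * g0).symm (flipHalf (2 ^ k) y)) =
        !outEquiv k r hr g0 β ((blockPerm k r hr h * g0).symm y)) ↔
      ∀ ρ ∈ (Finset.univ : Finset (Fin (2 ^ r))), ∀ κ, β ρ ((h ρ).symm (flipHalf (2 ^ (k - r)) κ)) =
        !β ρ ((h ρ).symm κ) := by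
    constructor
    · intro H ρ _ κ
      have := H (posEquiv k r hr (κ, ρ))
      rwa [flipHalf_posEquiv, outEquiv_blockPerm_symm, outEquiv_blockPerm_symm] at this
    · intro H y
      obtain ⟨⟨κ, ρ⟩, rfl⟩ := (posEquiv k r hr).surjective y
      rw [flipHalf_posEquiv, outEquiv_blockPerm_symm, outEquiv_blockPerm_symm]
      exact H ρ (Finset.mem_univ _) κ
  have hpow : ∏ _ρ : Fin (2 ^ r), ((1 : ℝ) / 2) ^ (2 ^ (k - r)) = (1 / 2 : ℝ) ^ (2 ^ k) := by
    rw [Finset.prod_const, Finset.card_univ, Fintype.card_fin, ← pow_mul, ← pow_add,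
      Nat.sub_add_cancel hr]
  rw [bitChan_eq]
  simp only [bitChan_eq]
  by_cases hc : ∀ ρ ∈ (Finset.univ : Finset (Fin (2 ^ r))), ∀ κ,
      β ρ ((h ρ).symm (flipHalf (2 ^ (k - r)) κ)) = !β ρ ((h ρ).symm κ)
  · rw [if_pos (hcond.2 hc), ← hpow]
    refine (Finset.prod_congr rfl fun ρ hρ => ?_).symm
    rw [if_pos (hc ρ hρ)]
  · rw [if_neg (fun H => hc (hcond.1 H))]
    push_neg at hc
    obtain ⟨ρ, hρ, κ, hκ⟩ := hc
    refine (Finset.prod_eq_zero hρ ?_).symm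
    rw [if_neg (fun H => hκ (H κ))]

end Vale.Agent.P162.Top
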