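import Vale.Agent.P162.Top.SrSucc
import Vale.Agent.P162.Top.Fibre
import Vale.Agent.P162.KL.Cond

namespace Vale.Agent.P162.Top

open Finset Real Vale.Agent.P162 Vale.Agent.P162.KL

/-- the one-step inequality (P1) -/
theorem one_step (k r : ℕ) (hr : r ≤ k) (σ : ℝ) (hσ : SDPI (bitChan (2 ^ (k - r))) σ)
    (μ : G k → ℝ) (hμ : IsLaw μ) :
    Sr k (r + 1) (conv (thorpLaw (2 ^ k)) μ) ≤ (1 - σ) * Sr k r μ + σ * kl μ (unif (G k)) :=
  le_trans (Sr_succ_conv_le k r hr μ hμ)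
    (cond_sdpi _ _ (isChan_bitChan _) σ (fibre_sdpi k r hr σ hσ) μ hμ)

end Vale.Agent.P162.Top
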