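import Vale.Agent.P162.Top.Defs
import Vale.Agent.P162.Thorp
import Vale.Agent.P162.Group

namespace Vale.Agent.P162.Top

open Finset Real Vale.Agent.P162 Vale.Agent.P162.KL

theorem thorpLaw_eq_sum (m : ℕ) (q : Equiv.Perm (Fin (2 * m))) :
    thorpLaw m q = (∑ b : Fin m → Bool, if thorpPerm m b = q then (1 : ℝ) else 0) / 2 ^ m := by
  classical
  unfold thorpLaw
  congr 1
  rw [Finset.card_filter]
  push_cast
  apply Finset.sum_congr rfl
  intro b _
  have : (∀ x, q x = thorpMap m b x) ↔ thorpPerm m b = q :=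
    ⟨fun h => (Equiv.ext h).symm, fun h x => by rw [← h]; rfl⟩
  simp only [this]

/-- law of an observable after one more shuffle -/
theorem pm_conv {A : Type*} [DecidableEq A] (m : ℕ) (μ : Equiv.Perm (Fin (2 * m)) → ℝ)
    (X : Equiv.Perm (Fin (2 * m)) → A) (a : A) :
    KL.pm (conv (thorpLaw m) μ) X a =
      ∑ g, μ g * (((Finset.univ.filter
        (fun b : Fin m → Bool => X (thorpPerm m b * g) = a)).card : ℝ) / 2 ^ m) := by
  classical
  unfold KL.pm conv
  rw [Finset.sum_filter]
  -- ∑ w, if X w = a then ∑ h, q h * μ (h⁻¹ w)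
  have h1 : ∀ w : Equiv.Perm (Fin (2 * m)),
      (if X w = a then ∑ h, thorpLaw m h * μ (h⁻¹ * w) else 0) =
        ∑ h, (if X w = a then thorpLaw m h * μ (h⁻¹ * w) else 0) := by
    intro w
    split_ifs
    · rfl
    · simp
  simp only [h1]
  rw [Finset.sum_comm]
  -- ∑ h, ∑ w, if X w = a then q h * μ (h⁻¹ w)
  have h2 : ∀ h : Equiv.Perm (Fin (2 * m)),
      ∑ w, (if X w = a then thorpLaw m h * μ (h⁻¹ * w) else 0) =
        ∑ g, (if X (h * g) = a then thorpLaw m h * μ g else 0) := by
    intro h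
    rw [← Equiv.sum_comp (Equiv.mulLeft h)]
    apply Finset.sum_congr rfl
    intro g _
    simp
  simp only [h2]
  rw [Finset.sum_comm]
  apply Finset.sum_congr rfl
  intro g _
  rw [Finset.card_filter]
  push_cast
  rw [Finset.sum_div, Finset.mul_sum]
  -- ∑ h, if X (h g) = a then q h * μ g = ∑ b, μ g * ((if ..) / 2^m)
  simp only [thorpLaw_eq_sum]
  have h3 : ∀ h : Equiv.Perm (Fin (2 * m)),
      (if X (h * g) = a then
        (∑ b : Fin m → Bool, if thorpPerm m b = h then (1 : ℝ) else 0) / 2 ^ m * μ g else 0) =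
      ∑ b : Fin m → Bool, (if thorpPerm m b = h then
        μ g * ((if X (thorpPerm m b * g) = a then (1 : ℝ) else 0) / 2 ^ m) else 0) := by
    intro h
    by_cases hX : X (h * g) = a
    · rw [if_pos hX, Finset.sum_div, Finset.sum_mul]
      apply Finset.sum_congr rfl
      intro b _
      by_cases hb : thorpPerm m b = h
      · rw [if_pos hb, if_pos hb, hb, if_pos hX]; ring
      · rw [if_neg hb, if_neg hb]; simp
    · rw [if_neg hX]
      symm
      apply Finset.sum_eq_zero
      intro b _
      by_cases hb : thorpPerm m b = h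
      · rw [if_pos hb, hb, if_neg hX]; simp
      · rw [if_neg hb]
  simp only [h3]
  rw [Finset.sum_comm]
  apply Finset.sum_congr rfl
  intro b _
  rw [Finset.sum_ite_eq]
  simp

end Vale.Agent.P162.Top
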