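import Vale.Agent.P162.Top.PmConvLow
import Vale.Agent.P162.Top.ConvComm
import Vale.Agent.P162.Top.BitChan
import Vale.Agent.P162.KL.JointPair
import Vale.Agent.P162.KL.DvKl

namespace Vale.Agent.P162.Top

open Finset Real Vale.Agent.P162 Vale.Agent.P162.KL

theorem Sr_succ_conv_le (k r : ℕ) (hr : r ≤ k) (μ : G k → ℝ) (hμ : IsLaw μ) :
    Sr k (r + 1) (conv (thorpLaw (2 ^ k)) μ) ≤
      kl (joint (lowBits k r) (bitChan (2 ^ k)) μ)
        (joint (lowBits k r) (bitChan (2 ^ k)) (unif (G k))) := by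
  have hP := pair_joint (lowBits k r) (bitChan (2 ^ k)) (isChan_bitChan _) μ hμ
  have h1 : KL.pm (conv (thorpLaw (2 ^ k)) μ) (lowBits k (r + 1)) =
      KL.pm (joint (lowBits k r) (bitChan (2 ^ k)) μ) (enc k) :=
    funext (pm_conv_lowBits k r hr μ)
  have h2 : KL.pm (unif (G k)) (lowBits k (r + 1)) =
      KL.pm (joint (lowBits k r) (bitChan (2 ^ k)) (unif (G k))) (enc k) := by
    have h3 := funext (pm_conv_lowBits k r hr (unif (G k)))
    rw [conv_thorpLaw_unif] at h3
    exact h3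
  have h4 := Dv_le_kl hP (enc k)
  unfold Sr Dv
  unfold Dv at h4
  rw [h1, h2]
  exact h4

end Vale.Agent.P162.Top
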