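import Vale.Agent.P162.Top.Pos

namespace Vale.Agent.P162.Top

open Finset Real Vale.Agent.P162 Vale.Agent.P162.KL

theorem blockPerm_apply (k r : ℕ) (hr : r ≤ k)
    (h : Fin (2 ^ r) → Equiv.Perm (Fin (2 * 2 ^ (k - r)))) (κ : Fin (2 * 2 ^ (k - r)))
    (ρ : Fin (2 ^ r)) :
    blockPerm k r hr h (posEquiv k r hr (κ, ρ)) = posEquiv k r hr (h ρ κ, ρ) := by
  unfold blockPerm
  rw [Equiv.permCongr_apply, Equiv.symm_apply_apply]
  rfl

theorem blockPerm_symm_apply (k r : ℕ) (hr : r ≤ k)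
    (h : Fin (2 ^ r) → Equiv.Perm (Fin (2 * 2 ^ (k - r)))) (κ : Fin (2 * 2 ^ (k - r)))
    (ρ : Fin (2 ^ r)) :
    (blockPerm k r hr h).symm (posEquiv k r hr (κ, ρ)) = posEquiv k r hr ((h ρ).symm κ, ρ) := by
  rw [Equiv.symm_apply_eq, blockPerm_apply, Equiv.apply_symm_apply]

theorem blockPerm_injective (k r : ℕ) (hr : r ≤ k) :
    Function.Injective (blockPerm k r hr) := by
  intro h h' hh
  funext ρ
  apply Equiv.ext
  intro κ
  have h1 := congrArg (fun g : G k => g (posEquiv k r hr (κ, ρ))) hh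
  simp only [blockPerm_apply] at h1
  have h2 := (posEquiv k r hr).injective h1
  exact congrArg Prod.fst h2

theorem lowBits_blockPerm_mul (k r : ℕ) (hr : r ≤ k)
    (h : Fin (2 ^ r) → Equiv.Perm (Fin (2 * 2 ^ (k - r)))) (g0 : G k) :
    lowBits k r (blockPerm k r hr h * g0) = lowBits k r g0 := by
  funext x
  apply Fin.ext
  unfold lowBits
  simp only [Equiv.Perm.mul_apply]
  obtain ⟨⟨κ, ρ⟩, hy⟩ := (posEquiv k r hr).surjective (g0 x)
  rw [← hy, blockPerm_apply, posEquiv_mod, posEquiv_mod]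

end Vale.Agent.P162.Top
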