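import Vale.Agent.P162.Top.Block

namespace Vale.Agent.P162.Top

open Finset Real Vale.Agent.P162 Vale.Agent.P162.KL

/-- a permutation of a product preserving the second coordinate is a family of permutations -/
theorem exists_prodCongrLeft {α β : Type*} (σ : Equiv.Perm (α × β)) (hσ : ∀ p, (σ p).2 = p.2) :
    ∃ h : β → Equiv.Perm α, σ = Equiv.prodCongrLeft h := by
  have hσ' : ∀ p, (σ.symm p).2 = p.2 := by
    intro p
    have := hσ (σ.symm p)
    rw [Equiv.apply_symm_apply] at this
    exact this.symm
  refine ⟨fun b =>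
    { toFun := fun a => (σ (a, b)).1
      invFun := fun a => (σ.symm (a, b)).1
      left_inv := ?_
      right_inv := ?_ }, ?_⟩
  · intro a
    have h1 : ((σ (a, b)).1, b) = σ (a, b) := by
      ext
      · rfl
      · exact (hσ (a, b)).symm
    simp only [h1, Equiv.symm_apply_apply]
  · intro a
    have h1 : ((σ.symm (a, b)).1, b) = σ.symm (a, b) := by
      ext
      · rfl
      · exact (hσ' (a, b)).symm
    simp only [h1, Equiv.apply_symm_apply]
  · ext p
    · obtain ⟨a, b⟩ := p
      rfl
    · obtain ⟨a, b⟩ := p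
      exact hσ (a, b)

/-- two decks with the same `r` lowest bits differ by a block permutation of the positions -/
theorem exists_blockPerm (k r : ℕ) (hr : r ≤ k) (g g0 : G k)
    (hg : lowBits k r g = lowBits k r g0) :
    ∃ h : Fin (2 ^ r) → Equiv.Perm (Fin (2 * 2 ^ (k - r))), g = blockPerm k r hr h * g0 := by
  set e := posEquiv k r hr with he
  set q : G k := g * g0⁻¹ with hq
  have hres : ∀ y : Fin (2 * 2 ^ k), (q y).val % 2 ^ r = y.val % 2 ^ r := by
    intro y
    have h1 := congrFun hg (g0⁻¹ y)
    simp only [lowBits, Fin.mk.injEq] at h1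
    have h2 : g0 (g0⁻¹ y) = y := by simp
    rw [h2] at h1
    simpa [hq] using h1
  obtain ⟨h, hh⟩ := exists_prodCongrLeft (e.symm.permCongr q) (by
    intro p
    apply Fin.ext
    have h1 := posEquiv_symm_snd k r hr (q (e p))
    have h2 := posEquiv_symm_snd k r hr (e p)
    rw [hres, ← h2] at h1
    simpa [Equiv.permCongr_apply, he] using h1)
  refine ⟨h, ?_⟩
  ext x
  have h3 : blockPerm k r hr h = e.permCongr (e.symm.permCongr q) := by
    rw [hh]; rfl
  rw [h3]
  simp [Equiv.permCongr_apply, hq]

end Vale.Agent.P162.Top
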