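import Vale.Agent.P162.KL.Chan
import Vale.Agent.P162.Count

/-!
# P162, TOP half : definitions
Deck of `2 * 2 ^ k` cards, `g : G k` sends a card to its position.
-/

namespace Vale.Agent.P162.Top

open Finset Real Vale.Agent.P162 Vale.Agent.P162.KL

/-- the symmetric group of the deck of `2 * 2 ^ k` cards -/
abbrev G (k : ℕ) := Equiv.Perm (Fin (2 * 2 ^ k))

/-- positions modulo `2 ^ r`, card by card -/
def lowBits (k r : ℕ) (g : G k) : Fin (2 * 2 ^ k) → Fin (2 * 2 ^ k) :=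
  fun x => ⟨(g x).val % 2 ^ r, lt_of_le_of_lt (Nat.mod_le _ _) (g x).isLt⟩

/-- divergence of the `r` lowest position bits of all cards -/
noncomputable def Sr (k r : ℕ) (μ : G k → ℝ) : ℝ := Dv μ (unif (G k)) (lowBits k r)

/-- append a new lowest bit -/
def enc (k : ℕ) (aτ : (Fin (2 * 2 ^ k) → Fin (2 * 2 ^ k)) × (Fin (2 * 2 ^ k) → Bool)) :
    Fin (2 * 2 ^ k) → Fin (2 * 2 ^ k) :=
  fun x => ⟨(2 * (aτ.1 x).val + (if aτ.2 x then 1 else 0)) % (2 * 2 ^ k),
    Nat.mod_lt _ (by positivity)⟩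

theorem pos_card (k r : ℕ) (hr : r ≤ k) : 2 * 2 ^ (k - r) * 2 ^ r = 2 * 2 ^ k := by
  rw [mul_assoc, ← pow_add, Nat.sub_add_cancel hr]

/-- position `ρ + 2 ^ r * κ` from (high part `κ`, low part `ρ`) -/
def posEquiv (k r : ℕ) (hr : r ≤ k) : Fin (2 * 2 ^ (k - r)) × Fin (2 ^ r) ≃ Fin (2 * 2 ^ k) :=
  finProdFinEquiv.trans (finCongr (pos_card k r hr))

/-- the permutation of positions acting by `h ρ` on the high part of the residue class `ρ` -/
def blockPerm (k r : ℕ) (hr : r ≤ k) (h : Fin (2 ^ r) → Equiv.Perm (Fin (2 * 2 ^ (k - r)))) :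
    G k :=
  (posEquiv k r hr).permCongr (Equiv.prodCongrLeft h)

/-- regrouping of a Boolean column according to the residue classes of the positions under `g0` -/
def outEquiv (k r : ℕ) (hr : r ≤ k) (g0 : G k) :
    (Fin (2 ^ r) → Fin (2 * 2 ^ (k - r)) → Bool) ≃ (Fin (2 * 2 ^ k) → Bool) where
  toFun β := fun x => β ((posEquiv k r hr).symm (g0 x)).2 ((posEquiv k r hr).symm (g0 x)).1
  invFun τ := fun ρ κ => τ (g0.symm (posEquiv k r hr (κ, ρ)))
  left_inv := by intro β; funext ρ κ; simp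
  right_inv := by intro τ; funext x; simp

/-- the weighted potential -/
noncomputable def Psi (k : ℕ) (w : ℕ → ℝ) (μ : G k → ℝ) : ℝ :=
  ∑ i ∈ Finset.range (k + 1), w i * Sr k (k + 1 - i) μ

/-- the SDPI constants used: `1/2` below `j0`, then `(17/10)/(i+1)` -/
noncomputable def sg (j0 i : ℕ) : ℝ := if i < j0 then 1 / 2 else (17 / 10) / ((i : ℝ) + 1)

/-- the weights -/
noncomputable def wt (j0 : ℕ) : ℕ → ℝ
  | 0 => 1
  | i + 1 => (1 - sg j0 i) * wt j0 i

end Vale.Agent.P162.Top
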