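import Vale.Agent.P162.Top.Potential
import Vale.Agent.P162.Top.Start

namespace Vale.Agent.P162.Top

open Finset Real Vale.Agent.P162 Vale.Agent.P162.KL

theorem Psi_iter (k : ℕ) (w σ : ℕ → ℝ) (hw : ∀ i, 0 < w i)
    (hws : ∀ i ≤ k, w (i + 1) ≤ (1 - σ i) * w i)
    (hσ : ∀ i ≤ k, SDPI (bitChan (2 ^ i)) (σ i))
    (hδ : w (k + 1) ≤ ∑ i ∈ Finset.range (k + 1), w i) (t : ℕ) :
    Psi k w (thorpPow (2 ^ k) t) ≤
      (1 - w (k + 1) / ∑ i ∈ Finset.range (k + 1), w i) ^ t * Psi k w (thorpPow (2 ^ k) 0) := by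
  have hW : 0 < ∑ i ∈ Finset.range (k + 1), w i :=
    Finset.sum_pos (fun i _ => hw i) ⟨0, by simp⟩
  have h0 : 0 ≤ 1 - w (k + 1) / ∑ i ∈ Finset.range (k + 1), w i := by
    rw [sub_nonneg, div_le_one hW]
    exact hδ
  induction t with
  | zero => simp
  | succ t ih =>
    rw [thorpPow_succ', pow_succ]
    calc Psi k w (conv (thorpLaw (2 ^ k)) (thorpPow (2 ^ k) t))
        ≤ (1 - w (k + 1) / ∑ i ∈ Finset.range (k + 1), w i) * Psi k w (thorpPow (2 ^ k) t) :=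
          Psi_step k w σ hw hws hσ _ (isLaw_thorpPow _ t)
      _ ≤ (1 - w (k + 1) / ∑ i ∈ Finset.range (k + 1), w i) *
          ((1 - w (k + 1) / ∑ i ∈ Finset.range (k + 1), w i) ^ t *
            Psi k w (thorpPow (2 ^ k) 0)) := mul_le_mul_of_nonneg_left ih h0
      _ = _ := by ring

end Vale.Agent.P162.Top
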