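import Vale.Agent.P162.Top.Defs
import Vale.Agent.P162.Thorp

namespace Vale.Agent.P162.Top

open Finset Real Vale.Agent.P162 Vale.Agent.P162.KL

/-- the `r + 1` lowest bits after the shuffle = the `r` lowest bits before, and the new bit -/
theorem lowBits_succ_thorp (k r : ℕ) (hr : r ≤ k) (g : G k) (b : Fin (2 ^ k) → Bool) :
    lowBits k (r + 1) (thorpPerm (2 ^ k) b * g) = enc k (lowBits k r g, newBit (2 ^ k) g b) := by
  funext x
  apply Fin.ext
  obtain ⟨c, hc, hv⟩ := thorpMap_val (2 ^ k) b (g x)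
  have hgx := (g x).isLt
  have e1 : ((thorpPerm (2 ^ k) b * g) x).val = 2 * ((g x).val % 2 ^ k) + c := hv
  have e2 : (if newBit (2 ^ k) g b x then 1 else 0) = c := by
    unfold newBit
    rw [hv]
    by_cases h1 : c = 1
    · subst h1
      have : (2 * ((g x).val % 2 ^ k) + 1) % 2 = 1 := by omega
      simp [this]
    · have h0 : c = 0 := by omega
      subst h0
      have : ¬ ((2 * ((g x).val % 2 ^ k) + 0) % 2 = 1) := by omega
      simp [this]
  show ((thorpPerm (2 ^ k) b * g) x).val % 2 ^ (r + 1) =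
    (2 * ((g x).val % 2 ^ r) + (if newBit (2 ^ k) g b x then 1 else 0)) % (2 * 2 ^ k)
  rw [e1, e2]
  set y := (g x).val with hy
  have hpow : 2 ^ k = 2 ^ r * 2 ^ (k - r) := by rw [← pow_add, Nat.add_sub_cancel' hr]
  have hmm : y % 2 ^ k % 2 ^ r = y % 2 ^ r := by
    rw [hpow]; exact Nat.mod_mul_right_mod _ _ _
  have hr0 : 0 < 2 ^ r := by positivity
  have hlt : y % 2 ^ r < 2 ^ r := Nat.mod_lt _ hr0
  have hle : 2 ^ r ≤ 2 ^ k := Nat.pow_le_pow_right (by norm_num) hr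
  have h2 : (2 * (y % 2 ^ r) + c) % (2 * 2 ^ k) = 2 * (y % 2 ^ r) + c :=
    Nat.mod_eq_of_lt (by omega)
  rw [h2, pow_succ]
  -- (2 z + c) % (2^r * 2) = 2 (z % 2^r) + c
  set z := y % 2 ^ k with hz
  have h3 : z = 2 ^ r * (z / 2 ^ r) + z % 2 ^ r := (Nat.div_add_mod z (2 ^ r)).symm
  rw [← hmm]
  have h4 : 2 * z + c = (2 * (z % 2 ^ r) + c) + (2 ^ r * 2) * (z / 2 ^ r) := by
    conv_lhs => rw [h3]
    ring
  rw [h4, Nat.add_mul_mod_self_left]
  have hlt' : z % 2 ^ r < 2 ^ r := Nat.mod_lt _ hr0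
  exact Nat.mod_eq_of_lt (by omega)

end Vale.Agent.P162.Top
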