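import Vale.Agent.P162.Top.PmConv
import Vale.Agent.P162.Top.LowBitsStep

namespace Vale.Agent.P162.Top

open Finset Real Vale.Agent.P162 Vale.Agent.P162.KL

/-- the law of the `r + 1` lowest bits after the shuffle is the image under `enc` of the joint law
of (the `r` lowest bits, output of the new-bit channel) -/
theorem pm_conv_lowBits (k r : ℕ) (hr : r ≤ k) (μ : G k → ℝ)
    (c : Fin (2 * 2 ^ k) → Fin (2 * 2 ^ k)) :
    KL.pm (conv (thorpLaw (2 ^ k)) μ) (lowBits k (r + 1)) c =
      KL.pm (joint (lowBits k r) (bitChan (2 ^ k)) μ) (enc k) c := by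
  rw [pm_conv]
  unfold KL.pm joint
  rw [Finset.sum_comm]
  apply Finset.sum_congr rfl
  intro g _
  simp only [lowBits_succ_thorp k r hr g]
  rw [Finset.sum_filter, Fintype.sum_prod_type]
  rw [Finset.sum_eq_single (lowBits k r g)]
  · simp only [if_true]
    unfold bitChan
    simp only [Finset.natCast_card_filter]
    have h1 : ∀ τ : Fin (2 * 2 ^ k) → Bool,
        (if enc k (lowBits k r g, τ) = c then
          μ g * ((∑ b : Fin (2 ^ k) → Bool, if newBit (2 ^ k) g b = τ then (1 : ℝ) else 0)
            / 2 ^ 2 ^ k) else 0) =
        ∑ b : Fin (2 ^ k) → Bool, if newBit (2 ^ k) g b = τ then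
          (if enc k (lowBits k r g, newBit (2 ^ k) g b) = c then μ g / 2 ^ 2 ^ k else 0) else 0 := by
      intro τ
      split_ifs with h
      · rw [Finset.sum_div, Finset.mul_sum]
        apply Finset.sum_congr rfl
        intro b _
        split_ifs with h2 h3
        · ring
        · exact absurd (h2 ▸ h) h3
        · simp
      · symm
        apply Finset.sum_eq_zero
        intro b _
        split_ifs with h2 h3
        · exact absurd (h2 ▸ h3) h
        · rfl
        · rfl
    simp only [h1]
    rw [Finset.sum_comm]
    simp only [Finset.sum_ite_eq, Finset.mem_univ, if_true]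
    rw [Finset.sum_div, Finset.mul_sum]
    apply Finset.sum_congr rfl
    intro b _
    split_ifs
    · ring
    · simp
  · intro a _ ha
    apply Finset.sum_eq_zero
    intro τ _
    split_ifs with h1 h2
    · exact absurd h2.symm ha
    · rfl
    · rfl
  · intro h
    exact absurd (Finset.mem_univ _) h

end Vale.Agent.P162.Top
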