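import Vale.Agent.P162.Top.Defs

namespace Vale.Agent.P162.Top

open Finset Real Vale.Agent.P162 Vale.Agent.P162.KL

theorem posEquiv_val (k r : ℕ) (hr : r ≤ k) (κ : Fin (2 * 2 ^ (k - r))) (ρ : Fin (2 ^ r)) :
    (posEquiv k r hr (κ, ρ)).val = ρ.val + 2 ^ r * κ.val := by
  rfl

theorem posEquiv_mod (k r : ℕ) (hr : r ≤ k) (κ : Fin (2 * 2 ^ (k - r))) (ρ : Fin (2 ^ r)) :
    (posEquiv k r hr (κ, ρ)).val % 2 ^ r = ρ.val := by
  rw [posEquiv_val, Nat.add_mul_mod_self_left, Nat.mod_eq_of_lt ρ.2]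

theorem posEquiv_symm_snd (k r : ℕ) (hr : r ≤ k) (y : Fin (2 * 2 ^ k)) :
    (((posEquiv k r hr).symm y).2).val = y.val % 2 ^ r := by
  have h := posEquiv_mod k r hr ((posEquiv k r hr).symm y).1 ((posEquiv k r hr).symm y).2
  rw [Prod.mk.eta, Equiv.apply_symm_apply] at h
  exact h.symm

theorem flipHalf_posEquiv (k r : ℕ) (hr : r ≤ k) (κ : Fin (2 * 2 ^ (k - r))) (ρ : Fin (2 ^ r)) :
    flipHalf (2 ^ k) (posEquiv k r hr (κ, ρ)) = posEquiv k r hr (flipHalf (2 ^ (k - r)) κ, ρ) := by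
  have hpq : 2 ^ k = 2 ^ r * 2 ^ (k - r) := by
    rw [← pow_add, Nat.add_sub_cancel' hr]
  have hρ := ρ.2
  have hκ := κ.2
  apply Fin.ext
  rw [posEquiv_val]
  unfold flipHalf
  simp only [posEquiv_val]
  by_cases h : κ.val < 2 ^ (k - r)
  · have h1 : ρ.val + 2 ^ r * κ.val < 2 ^ k := by
      rw [hpq]
      calc ρ.val + 2 ^ r * κ.val < 2 ^ r + 2 ^ r * κ.val := by omega
        _ = 2 ^ r * (κ.val + 1) := by ring
        _ ≤ 2 ^ r * 2 ^ (k - r) := Nat.mul_le_mul_left _ h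
    rw [dif_pos h1, dif_pos h]
    simp only
    rw [hpq]
    ring
  · have h2 : 2 ^ r * 2 ^ (k - r) ≤ 2 ^ r * κ.val := Nat.mul_le_mul_left _ (not_lt.1 h)
    have h1 : ¬ ρ.val + 2 ^ r * κ.val < 2 ^ k := by
      rw [hpq, not_lt]
      omega
    rw [dif_neg h1, dif_neg h]
    simp only
    rw [hpq, Nat.mul_sub]
    omega

end Vale.Agent.P162.Top
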