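import Mathlib

namespace Vale.Agent.P162.Top

open Finset

/-- the telescoping potential argument, pure real sequences -/
theorem pot_real (k : ℕ) (w σ C C' : ℕ → ℝ) (hw : ∀ i, 0 < w i)
    (hws : ∀ i ≤ k, w (i + 1) ≤ (1 - σ i) * w i) (hC0 : ∀ i, C i ≤ C 0) (hCk : C (k + 1) = 0)
    (hstep : ∀ i ≤ k, C' i ≤ (1 - σ i) * C (i + 1) + σ i * C 0) :
    ∑ i ∈ Finset.range (k + 1), w i * C' i ≤
      (1 - w (k + 1) / ∑ i ∈ Finset.range (k + 1), w i) *
        ∑ i ∈ Finset.range (k + 1), w i * C i := by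
  set W : ℝ := ∑ i ∈ Finset.range (k + 1), w i with hW
  set P : ℝ := ∑ i ∈ Finset.range (k + 1), w i * C i with hP
  have hWpos : 0 < W := Finset.sum_pos (fun i _ => hw i) ⟨0, Finset.mem_range.2 (Nat.succ_pos k)⟩
  -- termwise bound
  have h1 : ∑ i ∈ Finset.range (k + 1), w i * C' i ≤
      ∑ i ∈ Finset.range (k + 1), (w (i + 1) * C (i + 1) - w (i + 1) * C 0 + w i * C 0) := by
    refine Finset.sum_le_sum fun i hi => ?_
    have hik : i ≤ k := Nat.lt_succ_iff.1 (Finset.mem_range.1 hi)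
    have a1 := hstep i hik
    have a2 := hws i hik
    have a3 := hC0 (i + 1)
    have a4 := hw i
    have b1 : w i * C' i ≤ w i * ((1 - σ i) * C (i + 1) + σ i * C 0) :=
      mul_le_mul_of_nonneg_left a1 a4.le
    have b2 : ((1 - σ i) * w i - w (i + 1)) * (C (i + 1) - C 0) ≤ 0 :=
      mul_nonpos_of_nonneg_of_nonpos (by linarith) (by linarith)
    nlinarith
  have s1 : ∑ i ∈ Finset.range (k + 1), w (i + 1) * C (i + 1) = P - w 0 * C 0 := by
    have e1 := Finset.sum_range_succ' (fun i => w i * C i) (k + 1)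
    have e2 := Finset.sum_range_succ (fun i => w i * C i) (k + 1)
    simp only [hCk, mul_zero, add_zero] at e2
    rw [e2] at e1
    rw [hP]
    linarith
  have s2 : ∑ i ∈ Finset.range (k + 1), w (i + 1) = W - w 0 + w (k + 1) := by
    have e1 := Finset.sum_range_succ' (fun i => w i) (k + 1)
    have e2 := Finset.sum_range_succ (fun i => w i) (k + 1)
    rw [e2] at e1
    rw [hW]
    linarith
  have h2 : ∑ i ∈ Finset.range (k + 1), (w (i + 1) * C (i + 1) - w (i + 1) * C 0 + w i * C 0)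
      = P - w (k + 1) * C 0 := by
    rw [Finset.sum_add_distrib, Finset.sum_sub_distrib, ← Finset.sum_mul, ← Finset.sum_mul, s1, s2,
      ← hW]
    ring
  have h3 : P ≤ W * C 0 := by
    rw [hP, hW, Finset.sum_mul]
    exact Finset.sum_le_sum fun i _ => mul_le_mul_of_nonneg_left (hC0 i) (hw i).le
  have h4 : w (k + 1) / W * P ≤ w (k + 1) * C 0 := by
    rw [div_mul_eq_mul_div, div_le_iff₀ hWpos]
    have := mul_le_mul_of_nonneg_left h3 (hw (k + 1)).le
    nlinarith
  calc ∑ i ∈ Finset.range (k + 1), w i * C' i ≤ P - w (k + 1) * C 0 := h1.trans h2.le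
    _ ≤ (1 - w (k + 1) / W) * P := by nlinarith

end Vale.Agent.P162.Top
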