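import Vale.Agent.P162.Top.OneStep
import Vale.Agent.P162.Top.SrBasic
import Vale.Agent.P162.Top.PotReal

namespace Vale.Agent.P162.Top

open Finset Real Vale.Agent.P162 Vale.Agent.P162.KL

theorem Psi_step (k : ℕ) (w σ : ℕ → ℝ) (hw : ∀ i, 0 < w i)
    (hws : ∀ i ≤ k, w (i + 1) ≤ (1 - σ i) * w i)
    (hσ : ∀ i ≤ k, SDPI (bitChan (2 ^ i)) (σ i)) (μ : G k → ℝ) (hμ : IsLaw μ) :
    Psi k w (conv (thorpLaw (2 ^ k)) μ) ≤
      (1 - w (k + 1) / ∑ i ∈ Finset.range (k + 1), w i) * Psi k w μ := by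
  unfold Psi
  refine pot_real k w σ (fun i => Sr k (k + 1 - i) μ)
    (fun i => Sr k (k + 1 - i) (conv (thorpLaw (2 ^ k)) μ)) hw hws ?_ ?_ ?_
  · intro i
    exact Sr_mono k (by omega) μ hμ
  · simp only [Nat.sub_self]
    exact Sr_zero k μ hμ
  · intro i hi
    have h1 := one_step k (k - i) (Nat.sub_le k i) (σ i)
      (by rw [Nat.sub_sub_self hi]; exact hσ i hi) μ hμ
    have e1 : k - i + 1 = k + 1 - i := by omega
    have e2 : k + 1 - (i + 1) = k - i := by omega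
    simp only [e2, Nat.sub_zero]
    rw [e1] at h1
    rw [Sr_top]
    exact h1

end Vale.Agent.P162.Top
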