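import Vale.Agent.P162.Top.Defs

namespace Vale.Agent.P162.Top

open Finset Real

theorem sg_nonneg (j0 i : ℕ) : 0 ≤ sg j0 i := by
  unfold sg
  split_ifs <;> positivity

theorem sg_lt_one (j0 : ℕ) (hj : 1 ≤ j0) (i : ℕ) : sg j0 i < 1 := by
  unfold sg
  split_ifs with h
  · norm_num
  · have hi : (1 : ℝ) ≤ (i : ℝ) := by
      have : 1 ≤ i := by omega
      exact_mod_cast this
    rw [div_lt_one (by positivity)]
    linarith

theorem wt_pos (j0 : ℕ) (hj : 1 ≤ j0) (i : ℕ) : 0 < wt j0 i := by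
  induction i with
  | zero => simp [wt]
  | succ i ih =>
    have h := sg_lt_one j0 hj i
    simp only [wt]
    exact mul_pos (by linarith) ih

theorem wt_succ_le (j0 : ℕ) (hj : 1 ≤ j0) (i : ℕ) : wt j0 (i + 1) ≤ wt j0 i := by
  have h := sg_nonneg j0 i
  have h2 := wt_pos j0 hj i
  simp only [wt]
  nlinarith

theorem wt_le_sum (j0 : ℕ) (hj : 1 ≤ j0) (k : ℕ) :
    wt j0 (k + 1) ≤ ∑ i ∈ Finset.range (k + 1), wt j0 i := by
  refine (wt_succ_le j0 hj k).trans ?_
  exact Finset.single_le_sum (f := fun i => wt j0 i) (fun i _ => (wt_pos j0 hj i).le)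
    (Finset.mem_range.2 (Nat.lt_succ_self k))

end Vale.Agent.P162.Top
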