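import Vale.Agent.P162.Top.Wt

namespace Vale.Agent.P162.Top

open Finset Real

/-- the one step comparison: `(t+1)^(-9/5) ≤ (1 - (17/10)/t) * t^(-9/5)` for `t ≥ 31` -/
theorem wt_step_aux (t : ℝ) (ht : 31 ≤ t) :
    (t + 1) ^ (-(9 / 5) : ℝ) ≤ (1 - (17 / 10) / t) * t ^ (-(9 / 5) : ℝ) := by
  have ht0 : 0 < t := by linarith
  have hb : 1 + (9 / 5 : ℝ) * (1 / t) ≤ (1 + 1 / t) ^ (9 / 5 : ℝ) :=
    one_add_mul_self_le_rpow_one_add (by have : 0 < 1 / t := by positivity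
                                         linarith) (by norm_num)
  have hsplit : (t + 1) ^ (9 / 5 : ℝ) = t ^ (9 / 5 : ℝ) * (1 + 1 / t) ^ (9 / 5 : ℝ) := by
    rw [← Real.mul_rpow ht0.le (by positivity)]
    congr 1
    field_simp
  have hP : 0 < t ^ (9 / 5 : ℝ) := Real.rpow_pos_of_pos ht0 _
  rw [Real.rpow_neg (by linarith), Real.rpow_neg ht0.le, hsplit]
  have hB : 0 < 1 + (9 / 5 : ℝ) * (1 / t) := by positivity
  have hC : 0 < (1 + 1 / t) ^ (9 / 5 : ℝ) := lt_of_lt_of_le hB hb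
  rw [mul_inv, mul_comm]
  apply mul_le_mul_of_nonneg_right _ (inv_pos.2 hP).le
  calc ((1 + 1 / t) ^ (9 / 5 : ℝ))⁻¹ ≤ (1 + (9 / 5 : ℝ) * (1 / t))⁻¹ := inv_anti₀ hB hb
    _ ≤ 1 - (17 / 10) / t := by
        rw [inv_le_iff_one_le_mul₀ hB]
        have : (1 + 9 / 5 * (1 / t)) * (1 - 17 / 10 / t)
            = 1 + (t / 10 - 153 / 50) / (t * t) := by
          field_simp
          ring
        rw [mul_comm, this]
        have : 0 ≤ (t / 10 - 153 / 50) / (t * t) := by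
          apply div_nonneg _ (by positivity)
          linarith
        linarith

theorem wt_antitone (j0 : ℕ) (hj : 1 ≤ j0) {i j : ℕ} (hij : i ≤ j) : wt j0 j ≤ wt j0 i := by
  induction j, hij using Nat.le_induction with
  | base => exact le_rfl
  | succ j _ ih => exact (wt_succ_le j0 hj j).trans ih

/-- polynomial lower bound for the weights: for large `i`,
`1 - (17/10)/(i+1) ≥ ((i+1)/(i+2)) ^ (9/5)` -/
theorem wt_lower (j0 : ℕ) (hj : 1 ≤ j0) :
    ∃ c1 : ℝ, 0 < c1 ∧ ∀ i : ℕ, c1 * ((i : ℝ) + 1) ^ (-(9 / 5) : ℝ) ≤ wt j0 i := by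
  set L0 := max j0 40 with hL0
  have hc : 0 < wt j0 L0 := wt_pos j0 hj L0
  have hle1 : ∀ i : ℕ, ((i : ℝ) + 1) ^ (-(9 / 5) : ℝ) ≤ 1 := by
    intro i
    apply Real.rpow_le_one_of_one_le_of_nonpos
    · have : (0 : ℝ) ≤ i := Nat.cast_nonneg i
      linarith
    · norm_num
  refine ⟨wt j0 L0, hc, ?_⟩
  have hbig : ∀ i : ℕ, L0 ≤ i → wt j0 L0 * ((i : ℝ) + 1) ^ (-(9 / 5) : ℝ) ≤ wt j0 i := by
    intro i hi
    induction i, hi using Nat.le_induction with
    | base =>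
      have := hle1 L0
      nlinarith
    | succ i hi ih =>
      have hi40 : 40 ≤ i := le_trans (le_max_right _ _) hi
      have hij0 : ¬ i < j0 := not_lt.2 (le_trans (le_max_left _ _) hi)
      have hiR : (40 : ℝ) ≤ (i : ℝ) := by exact_mod_cast hi40
      have hs := wt_step_aux ((i : ℝ) + 1) (by linarith)
      have hsg : sg j0 i = (17 / 10) / ((i : ℝ) + 1) := by
        unfold sg
        rw [if_neg hij0]
      have hw : wt j0 (i + 1) = (1 - sg j0 i) * wt j0 i := rfl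
      rw [hw, hsg]
      have hpos : 0 ≤ 1 - (17 / 10) / ((i : ℝ) + 1) := by
        rw [sub_nonneg, div_le_one (by linarith)]
        linarith
      push_cast
      calc wt j0 L0 * ((i : ℝ) + 1 + 1) ^ (-(9 / 5) : ℝ)
          ≤ wt j0 L0 * ((1 - (17 / 10) / ((i : ℝ) + 1)) * ((i : ℝ) + 1) ^ (-(9 / 5) : ℝ)) :=
            mul_le_mul_of_nonneg_left hs hc.le
        _ = (1 - (17 / 10) / ((i : ℝ) + 1)) * (wt j0 L0 * ((i : ℝ) + 1) ^ (-(9 / 5) : ℝ)) := by
            ring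
        _ ≤ (1 - (17 / 10) / ((i : ℝ) + 1)) * wt j0 i := mul_le_mul_of_nonneg_left ih hpos
  intro i
  rcases le_total L0 i with h | h
  · exact hbig i h
  · have h1 := wt_antitone j0 hj h
    have h2 := hle1 i
    nlinarith

end Vale.Agent.P162.Top
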